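import Vale.Agent.Lib.P043.General

/-- For every odd prime `p`, every dimension `d` and every finite `F ⊂ ℤ^d` with `|F| = 2p`:
if `F` tiles `ℤ^d` by translations, then `F` admits a periodic tiling. -/
theorem Vale.Agent.Results.P043.A_TwoP.result {d p : ℕ} (hp : p.Prime) (hp2 : p ≠ 2)
    (F : Finset (Fin d → ℤ)) (hF : F.card = 2 * p)
    (hT : ∃ A : Set (Fin d → ℤ), P043.IsTiling A F) :
    ∃ A : Set (Fin d → ℤ), P043.IsTiling A F ∧ P043.IsPeriodic A := by
  haveI : Fact p.Prime := ⟨hp⟩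
  exact P043.periodic_tiling_two_p hp2 F hF hT
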